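import Mathlib

namespace Vale.Agent.Results.P116.A_RemoveTotDisc

open Set Topology

/-- A closed round disk of the Riemann sphere: the image of the closed unit disk
under a Moebius transformation (the action of `GL (Fin 2) ℂ` on `OnePoint ℂ`). -/
def IsClosedRoundDisk (K : Set (OnePoint ℂ)) : Prop :=
  ∃ g : GL (Fin 2) ℂ,
    K = (fun x : OnePoint ℂ => g • x) ''
      ((fun z : ℂ => (z : OnePoint ℂ)) '' Metric.closedBall (0 : ℂ) 1)

/-- A circle domain of the Riemann sphere: a nonempty connected open set each of whose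
complementary components is a single point or a closed round disk. -/
def IsCircleDomain (Ω : Set (OnePoint ℂ)) : Prop :=
  IsOpen Ω ∧ IsConnected Ω ∧
    ∀ x ∈ Ωᶜ, connectedComponentIn Ωᶜ x = {x} ∨ IsClosedRoundDisk (connectedComponentIn Ωᶜ x)

/-- Conformal equivalence of two subsets of the plane: mutually inverse holomorphic
bijections. -/
def ConformallyEquivalent (G Ω : Set ℂ) : Prop :=
  ∃ f g : ℂ → ℂ, DifferentiableOn ℂ f G ∧ DifferentiableOn ℂ g Ω ∧ MapsTo f G Ω ∧
    MapsTo g Ω G ∧ (∀ z ∈ G, g (f z) = z) ∧ (∀ w ∈ Ω, f (g w) = w)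

/-- The planar set `G` is conformally equivalent to a circle domain (not containing `∞`). -/
def KoebeUniformizable (G : Set ℂ) : Prop :=
  ∃ Ω : Set ℂ, IsCircleDomain ((fun z : ℂ => (z : OnePoint ℂ)) '' Ω) ∧ ConformallyEquivalent G Ω

theorem component_singleton {X : Type*} [TopologicalSpace X] {C F V O : Set X} {x : X}
    (hV : IsClosed V) (hO : IsOpen O) (hxV : x ∈ V) (hVF : V ⊆ F) (hVO : V ⊆ O)
    (hOV : O ∩ (C ∪ F) ⊆ V) (hF : IsTotallyDisconnected F) :
    connectedComponentIn (C ∪ F) x = {x} := by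
  have hx : x ∈ C ∪ F := Or.inr (hVF hxV)
  have hKpre : IsPreconnected (connectedComponentIn (C ∪ F) x) :=
    isPreconnected_connectedComponentIn
  have hxK : x ∈ connectedComponentIn (C ∪ F) x := mem_connectedComponentIn hx
  have hKsub : connectedComponentIn (C ∪ F) x ⊆ C ∪ F := connectedComponentIn_subset _ _
  have hKV : connectedComponentIn (C ∪ F) x ⊆ V := by
    by_contra hne
    obtain ⟨y, hyK, hyV⟩ := not_subset.mp hne
    have h1 : connectedComponentIn (C ∪ F) x ⊆ O ∪ Vᶜ := by
      intro k _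
      by_cases hk : k ∈ V
      · exact Or.inl (hVO hk)
      · exact Or.inr hk
    obtain ⟨w, hwK, hwO, hwV⟩ :=
      hKpre O Vᶜ hO hV.isOpen_compl h1 ⟨x, hxK, hVO hxV⟩ ⟨y, hyK, hyV⟩
    exact hwV (hOV ⟨hwO, hKsub hwK⟩)
  have hsub : (connectedComponentIn (C ∪ F) x).Subsingleton :=
    hF _ (hKV.trans hVF) hKpre
  exact subset_antisymm (fun y hy => hsub hy hxK) (singleton_subset_iff.mpr hxK)

/-- In a totally disconnected relatively closed subset `F` of an open set `Ω` of the plane,
every point has a compact neighbourhood (in `F`) which is relatively open in `F`. -/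
theorem exists_compact_open_piece {Ω F : Set ℂ} (hΩ : IsOpen Ω) (hFΩ : F ⊆ Ω)
    (hopen : IsOpen (Ω \ F)) (hF : IsTotallyDisconnected F) {z : ℂ} (hz : z ∈ F) :
    ∃ V O : Set ℂ, IsCompact V ∧ IsOpen O ∧ z ∈ V ∧ V ⊆ F ∧ O ⊆ Ω ∧ O ∩ F = V := by
  obtain ⟨r, hr, hball⟩ := Metric.isOpen_iff.mp hΩ z (hFΩ hz)
  have hcb : Metric.closedBall z (r / 2) ⊆ Ω :=
    (Metric.closedBall_subset_ball (by linarith)).trans hball
  set Fr : Set ℂ := F ∩ Metric.closedBall z (r / 2) with hFr
  have hFr_eq : Fr = Metric.closedBall z (r / 2) \ (Ω \ F) := by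
    ext w
    simp only [hFr, mem_inter_iff, mem_sdiff, not_and, not_not]
    constructor
    · rintro ⟨h1, h2⟩
      exact ⟨h2, fun _ => h1⟩
    · rintro ⟨h1, h2⟩
      exact ⟨h2 (hcb h1), h1⟩
  have hFr_compact : IsCompact Fr := by
    rw [hFr_eq]
    exact (isCompact_closedBall z (r / 2)).diff hopen
  have hFr_td : IsTotallyDisconnected Fr :=
    fun t ht hp => hF t (ht.trans inter_subset_left) hp
  have : CompactSpace Fr := isCompact_iff_compactSpace.mp hFr_compact
  have : TotallyDisconnectedSpace Fr := totallyDisconnectedSpace_subtype_iff.mpr hFr_td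
  have hzFr : z ∈ Fr := ⟨hz, Metric.mem_closedBall_self (by linarith)⟩
  have hUo : IsOpen ((fun p : Fr => (p : ℂ)) ⁻¹' Metric.ball z (r / 2)) :=
    Metric.isOpen_ball.preimage continuous_subtype_val
  obtain ⟨W, hWclopen, hzW, hWU⟩ :=
    compact_exists_isClopen_in_isOpen (x := (⟨z, hzFr⟩ : Fr)) hUo
      (by simp [Metric.mem_ball]; linarith)
  obtain ⟨O, hOo, hOW⟩ := isOpen_induced_iff.mp hWclopen.2
  refine ⟨(fun p : Fr => (p : ℂ)) '' W, O ∩ Metric.ball z (r / 2), ?_, ?_, ?_, ?_, ?_, ?_⟩
  · exact (hWclopen.1.isCompact).image continuous_subtype_val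
  · exact hOo.inter Metric.isOpen_ball
  · exact ⟨⟨z, hzFr⟩, hzW, rfl⟩
  · rintro _ ⟨p, _, rfl⟩
    exact p.2.1
  · exact inter_subset_right.trans (Metric.ball_subset_closedBall.trans hcb)
  · ext w
    constructor
    · rintro ⟨⟨hwO, hwb⟩, hwF⟩
      have hwFr : w ∈ Fr := ⟨hwF, Metric.ball_subset_closedBall hwb⟩
      refine ⟨⟨w, hwFr⟩, ?_, rfl⟩
      rw [← hOW]
      exact hwO
    · rintro ⟨p, hpW, rfl⟩
      refine ⟨⟨?_, hWU hpW⟩, p.2.1⟩
      have : p ∈ (fun p : Fr => (p : ℂ)) ⁻¹' O := by rw [hOW]; exact hpW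
      exact this

/-- **Closure of the class of Koebe-uniformizable planar domains under deletion of
relatively closed totally disconnected sets.**  If the planar open set `G` is conformally
equivalent to a circle domain, and `E ⊆ G` is totally disconnected and relatively closed in
`G` (that is, `G \ E` is open) with `G \ E` connected, then `G \ E` is conformally
equivalent to a circle domain. -/
theorem result (G E : Set ℂ) (hG : IsOpen G) (hE : E ⊆ G) (hGE : IsOpen (G \ E))
    (hconn : IsConnected (G \ E)) (htd : IsTotallyDisconnected E)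
    (hK : KoebeUniformizable G) : KoebeUniformizable (G \ E) := by
  have _hG' := hG
  obtain ⟨Ω, ⟨hΩo, hΩc, hΩcomp⟩, f, g, hf, hg, hfm, hgm, hgf, hfg⟩ := hK
  have hΩopen : IsOpen Ω := OnePoint.isOpen_image_coe.mp hΩo
  -- the image of `E`
  set F : Set ℂ := f '' E with hFdef
  have hFΩ : F ⊆ Ω := by
    rintro _ ⟨e, he, rfl⟩
    exact hfm (hE he)
  have hdiff : Ω \ F = Ω ∩ g ⁻¹' (G \ E) := by
    ext w
    constructor
    · rintro ⟨hw, hwF⟩
      refine ⟨hw, hgm hw, fun hgE => hwF ⟨g w, hgE, hfg w hw⟩⟩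
    · rintro ⟨hw, _, hgE⟩
      refine ⟨hw, ?_⟩
      rintro ⟨e, he, rfl⟩
      exact hgE (by rw [hgf e (hE he)]; exact he)
  have hdiff_open : IsOpen (Ω \ F) := by
    rw [hdiff]
    exact hg.continuousOn.isOpen_inter_preimage hΩopen hGE
  have himage : Ω \ F = f '' (G \ E) := by
    ext w
    constructor
    · intro hw
      have hw' := hw
      rw [hdiff] at hw'
      exact ⟨g w, hw'.2, hfg w hw.1⟩
    · rintro ⟨z, ⟨hzG, hzE⟩, rfl⟩
      refine ⟨hfm hzG, ?_⟩
      rintro ⟨e, he, hez⟩
      have : e = z := by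
        have h1 := hgf e (hE he)
        rw [hez, hgf z hzG] at h1
        exact h1.symm
      exact hzE (this ▸ he)
  have hdiff_conn : IsConnected (Ω \ F) := by
    rw [himage]
    exact hconn.image f (hf.continuousOn.mono sdiff_subset)
  have hFtd : IsTotallyDisconnected F := by
    intro t htF htpre
    have hgt : IsPreconnected (g '' t) :=
      htpre.image g (hg.continuousOn.mono (htF.trans hFΩ))
    have hgtE : g '' t ⊆ E := by
      rintro _ ⟨w, hw, rfl⟩
      obtain ⟨e, he, rfl⟩ := htF hw
      rw [hgf e (hE he)]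
      exact he
    have hsub := htd (g '' t) hgtE hgt
    intro a ha b hb
    have hab : g a = g b := hsub ⟨a, ha, rfl⟩ ⟨b, hb, rfl⟩
    have h1 := hfg a (hFΩ (htF ha))
    have h2 := hfg b (hFΩ (htF hb))
    rw [← h1, ← h2, hab]
  refine ⟨Ω \ F, ⟨?_, ?_, ?_⟩, f, g, hf.mono sdiff_subset, hg.mono sdiff_subset, ?_, ?_, ?_, ?_⟩
  · exact OnePoint.isOpen_image_coe.mpr hdiff_open
  · exact hdiff_conn.image _ OnePoint.continuous_coe.continuousOn
  · -- complementary components
    have hcompl : ((fun z : ℂ => (z : OnePoint ℂ)) '' (Ω \ F))ᶜ =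
        ((fun z : ℂ => (z : OnePoint ℂ)) '' Ω)ᶜ ∪ (fun z : ℂ => (z : OnePoint ℂ)) '' F := by
      ext x
      simp only [mem_compl_iff, mem_union, mem_image, mem_sdiff, not_exists, not_and]
      constructor
      · intro h
        by_cases hx : ∃ z, z ∈ Ω ∧ (z : OnePoint ℂ) = x
        · obtain ⟨z, hz, rfl⟩ := hx
          right
          by_contra hzF
          refine h z ⟨hz, fun hF' => hzF ⟨z, hF', rfl⟩⟩ rfl
        · left
          intro z hz hzx
          exact hx ⟨z, hz, hzx⟩
      · rintro (h | ⟨z, hzF, rfl⟩)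
        · intro z hz hzx
          exact h z hz.1 hzx
        · intro w hw hwz
          have : w = z := OnePoint.coe_injective hwz
          exact hw.2 (this ▸ hzF)
    rw [hcompl]
    have hFtd' : IsTotallyDisconnected ((fun z : ℂ => (z : OnePoint ℂ)) '' F) := by
      intro t htF htpre
      have : t = (fun z : ℂ => (z : OnePoint ℂ)) '' ((fun z : ℂ => (z : OnePoint ℂ)) ⁻¹' t) := by
        rw [image_preimage_eq_iff.mpr]
        exact htF.trans (image_subset_range _ _)
      rw [this] at htpre ⊢
      rw [OnePoint.isOpenEmbedding_coe.isInducing.isPreconnected_image] at htpre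
      refine (hFtd _ ?_ htpre).image _
      intro w hw
      obtain ⟨z, hz, hzw⟩ := htF hw
      have : z = w := OnePoint.coe_injective hzw
      exact this ▸ hz
    -- points of `F` are components
    have hpoint : ∀ z ∈ F, connectedComponentIn
        (((fun z : ℂ => (z : OnePoint ℂ)) '' Ω)ᶜ ∪ (fun z : ℂ => (z : OnePoint ℂ)) '' F)
        (z : OnePoint ℂ) = {(z : OnePoint ℂ)} := by
      intro z hz
      obtain ⟨V, O, hVc, hOo, hzV, hVF, hOΩ, hOF⟩ :=
        exists_compact_open_piece hΩopen hFΩ hdiff_open hFtd hz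
      refine component_singleton (V := (fun z : ℂ => (z : OnePoint ℂ)) '' V)
        (O := (fun z : ℂ => (z : OnePoint ℂ)) '' O) ?_ ?_ ⟨z, hzV, rfl⟩ (image_mono hVF) ?_ ?_ hFtd'
      · exact (hVc.image OnePoint.continuous_coe).isClosed
      · exact OnePoint.isOpen_image_coe.mpr hOo
      · rw [← hOF]
        exact image_mono inter_subset_left
      · rintro _ ⟨⟨w, hwO, rfl⟩, h | ⟨v, hvF, hvw⟩⟩
        · exact absurd ⟨w, hOΩ hwO, rfl⟩ h
        · have : v = w := OnePoint.coe_injective hvw
          refine ⟨w, ?_, rfl⟩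
          rw [← hOF]
          exact ⟨hwO, this ▸ hvF⟩
    intro x hx
    rcases hx with hx | ⟨z, hzF, rfl⟩
    · -- `x` lies in the complement of `Ω`
      have hsame : connectedComponentIn
          (((fun z : ℂ => (z : OnePoint ℂ)) '' Ω)ᶜ ∪ (fun z : ℂ => (z : OnePoint ℂ)) '' F) x =
          connectedComponentIn ((fun z : ℂ => (z : OnePoint ℂ)) '' Ω)ᶜ x := by
        have hxmem : x ∈ ((fun z : ℂ => (z : OnePoint ℂ)) '' Ω)ᶜ ∪
            (fun z : ℂ => (z : OnePoint ℂ)) '' F := Or.inl hx
        apply subset_antisymm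
        · apply IsPreconnected.subset_connectedComponentIn isPreconnected_connectedComponentIn
            (mem_connectedComponentIn hxmem)
          intro y hy
          rcases connectedComponentIn_subset _ _ hy with hyC | ⟨z, hzF, rfl⟩
          · exact hyC
          · exfalso
            have h1 := connectedComponentIn_eq hy
            rw [hpoint z hzF] at h1
            have h2 : x ∈ ({(z : OnePoint ℂ)} : Set (OnePoint ℂ)) := by
              rw [← h1]
              exact mem_connectedComponentIn hxmem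
            rw [mem_singleton_iff] at h2
            exact hx ⟨z, hFΩ hzF, h2.symm⟩
        · exact connectedComponentIn_mono x subset_union_left
      rw [hsame]
      exact hΩcomp x hx
    · left
      exact hpoint z hzF
  · intro z hz
    rw [himage]
    exact ⟨z, hz, rfl⟩
  · intro w hw
    rw [hdiff] at hw
    exact hw.2
  · intro z hz
    exact hgf z hz.1
  · intro w hw
    exact hfg w hw.1

end Vale.Agent.Results.P116.A_RemoveTotDisc
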